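import Mathlib

open scoped Classical

namespace Vale.Agent.P064

/-- Probability that `G(n,p)` equals the graph `G` on `Fin n`. -/
noncomputable def prob (n : ℕ) (p : ℝ) (G : SimpleGraph (Fin n)) : ℝ :=
  p ^ G.edgeFinset.card * (1 - p) ^ (n.choose 2 - G.edgeFinset.card)

/-- The threshold for `G(n,p)` to contain a copy of `H`. -/
noncomputable def pc (n : ℕ) {V : Type} (H : SimpleGraph V) : ℝ :=
  sInf {p | p ∈ Set.Icc (0 : ℝ) 1 ∧
    1 / 2 ≤ ∑ G : SimpleGraph (Fin n) with 0 < G.copyCount H, prob n p G}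

/-- The expectation threshold: every subgraph of `H` has expected count at least one half. -/
noncomputable def pE (n : ℕ) {V : Type} (H : SimpleGraph V) : ℝ :=
  sInf {p | p ∈ Set.Icc (0 : ℝ) 1 ∧ ∀ F : H.Subgraph,
    1 / 2 ≤ ∑ G : SimpleGraph (Fin n), prob n p G * (G.copyCount F.coe : ℝ)}

end Vale.Agent.P064
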