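import Vale.Agent.P064.Max

open Finset SimpleGraph
open scoped Classical Pointwise

namespace Vale.Agent.P064

noncomputable section

@[reducible] def act (n : ℕ) : MulAction (Equiv.Perm (Fin n)) (Sym2 (Fin n)) where
  smul g e := e.map g
  one_smul e := by change Sym2.map id e = e; simp
  mul_smul g h e := by change Sym2.map (g ∘ h) e = Sym2.map g (Sym2.map h e); simp [Sym2.map_map]

attribute [local instance] act

lemma act_def {n : ℕ} (g : Equiv.Perm (Fin n)) (e : Sym2 (Fin n)) : g • e = e.map g := rfl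

lemma bridge (n : ℕ) (p : ℝ) (f : SimpleGraph (Fin n) → ℝ) :
    ∑ G, prob n p G * f G =
      ex (⊤ : SimpleGraph (Fin n)).edgeFinset p fun W => f (fromEdgeSet W) := by
  unfold ex
  refine sum_nbij' (fun G => G.edgeFinset) (fun W => fromEdgeSet W) (fun G _ => ?_)
    (fun _ _ => mem_univ _) (fun G _ => by simp) (fun W hW => ?_) fun G _ => ?_
  · exact mem_powerset.2 (edgeFinset_mono le_top)
  · ext e
    have := @mem_powerset.1 hW e
    simp only [mem_edgeFinset, edgeSet_top, edgeSet_fromEdgeSet, Set.mem_diff, mem_coe] at this ⊢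
    tauto
  · have := card_edgeFinset_top_eq_card_choose_two (V := Fin n)
    rw [Fintype.card_fin] at this
    simp only [prob, coe_edgeFinset, fromEdgeSet_edgeSet]
    congr 4
    convert this.symm

variable {n : ℕ} {V : Type} [Fintype V] {H : SimpleGraph V} (f : V ↪ Fin n)

def HE (H : SimpleGraph V) (f : V ↪ Fin n) : Finset (Sym2 (Fin n)) :=
  H.edgeFinset.image (Sym2.map f)

lemma HE_sub (g : Equiv.Perm (Fin n)) : g • HE H f ⊆ (⊤ : SimpleGraph (Fin n)).edgeFinset := by
  intro e he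
  obtain ⟨e, he', rfl⟩ := mem_smul_finset.1 he
  obtain ⟨e, he'', rfl⟩ := mem_image.1 he'
  induction e with
  | h x y =>
  simpa [act_def] using (H.ne_of_adj (by simpa using he''))

lemma orb_ge {q : ℝ} (q0 : 0 ≤ q) (q1 : q ≤ 1)
    (h : ∀ F : H.Subgraph, 1 / 2 ≤ ∑ G : SimpleGraph (Fin n), prob n q G * (G.copyCount F.coe : ℝ))
    (J : Finset (Sym2 (Fin n))) (hJ : J ⊆ HE H f) :
    1 / 2 ≤ #(orb (Equiv.Perm (Fin n)) J) * q ^ #J := by
  let F : H.Subgraph :=
    { verts := {v | ∃ w, H.Adj v w ∧ s(f v, f w) ∈ J}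
      Adj := fun v w => H.Adj v w ∧ s(f v, f w) ∈ J
      adj_sub := fun h => h.1
      edge_vert := fun h => ⟨_, h⟩
      symm := ⟨fun v w h => ⟨h.1.symm, by rw [Sym2.eq_swap]; exact h.2⟩⟩ }
  refine (h F).trans ?_
  rw [bridge]
  refine (ex_mono q0 q1 (g := fun W => ∑ T ∈ orb (Equiv.Perm (Fin n)) J, if T ⊆ W then 1 else 0)
    fun W _ => ?_).trans (le_of_eq ?_)
  · rw [sum_boole, Nat.cast_le, copyCount]
    refine card_le_card_of_injOn (fun G' => univ.filter (· ∈ G'.edgeSet)) (fun G' hG' => ?_)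
      fun G₁ h₁ G₂ h₂ h => ?_
    · obtain ⟨e⟩ := (mem_filter.1 hG').2
      obtain ⟨g, hg⟩ := Equiv.Perm.exists_extending_pair (fun v : F.verts => f v)
        (fun v => (e v : Fin n)) (f.injective.comp Subtype.val_injective)
        (Subtype.val_injective.comp e.injective)
      refine mem_filter.2 ⟨mem_image.2 ⟨g, mem_univ _, ?_⟩, fun x hx => ?_⟩
      · ext x
        simp only [mem_smul_finset, mem_filter, mem_univ, true_and]
        constructor
        · rintro ⟨y, hy, rfl⟩
          obtain ⟨z, hz, rfl⟩ := mem_image.1 (hJ hy)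
          induction z with
          | h v w =>
          have h1 : F.Adj v w := ⟨by simpa using hz, hy⟩
          have h2 : F.coe.Adj ⟨v, F.edge_vert h1⟩ ⟨w, F.edge_vert h1.symm⟩ := h1
          have h3 := e.map_adj_iff.2 h2
          rw [Subgraph.coe_adj, ← hg, ← hg] at h3
          exact h3
        · intro hx
          induction x with
          | h a b =>
          have h1 : G'.coe.Adj ⟨a, G'.edge_vert hx⟩ ⟨b, G'.edge_vert (Subgraph.Adj.symm hx)⟩ := hx
          have h2 := e.symm.map_adj_iff.2 h1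
          refine ⟨_, h2.2, ?_⟩
          simp [act_def, hg]
      · have := G'.edgeSet_subset (mem_filter.1 hx).2
        rw [edgeSet_fromEdgeSet] at this
        exact this.1
    · have h3 : ∀ a b, G₁.Adj a b ↔ G₂.Adj a b := fun a b => by
        simpa using Finset.ext_iff.1 h s(a, b)
      have h4 : ∀ G' : (fromEdgeSet (W : Set (Sym2 (Fin n)))).Subgraph,
          Nonempty (F.coe ≃g G'.coe) → ∀ a, a ∈ G'.verts ↔ ∃ b, G'.Adj a b := by
        rintro G' ⟨e⟩ a
        refine ⟨fun ha => ?_, fun ⟨b, hb⟩ => G'.edge_vert hb⟩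
        obtain ⟨w, hw⟩ := (e.symm ⟨a, ha⟩).2
        have h1 : F.Adj (e.symm ⟨a, ha⟩) w := hw
        have h2 : F.coe.Adj (e.symm ⟨a, ha⟩) ⟨w, F.edge_vert h1.symm⟩ := h1
        have h3 := e.map_adj_iff.2 h2
        rw [RelIso.apply_symm_apply] at h3
        exact ⟨_, h3⟩
      ext a b
      · rw [h4 _ (mem_filter.1 h₁).2, h4 _ (mem_filter.1 h₂).2]
        simp only [h3]
      · exact h3 a b
  · rw [ex_sum, ← nsmul_eq_mul, ← sum_const]
    refine sum_congr rfl fun T hT => ?_
    obtain ⟨g, -, rfl⟩ := mem_image.1 hT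
    rw [ex_sup ((smul_finset_subset_smul_finset hJ).trans (HE_sub f g)), card_smul_finset]

lemma pc_le {p : ℝ} (p0 : 0 ≤ p) (p1 : p ≤ 1)
    (h : ex (⊤ : SimpleGraph (Fin n)).edgeFinset p (fun W =>
      if ∃ S ∈ orb (Equiv.Perm (Fin n)) (HE H f), S ⊆ W then 0 else 1) ≤ 1 / 3) : pc n H ≤ p := by
  refine csInf_le ⟨0, fun x hx => hx.1.1⟩ ⟨⟨p0, p1⟩, ?_⟩
  have h1 := bridge n p fun G => if 0 < G.copyCount H then 1 else 0
  simp only [mul_ite, mul_one, mul_zero] at h1
  rw [sum_filter, h1]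
  have h2 := ex_mono (s := (⊤ : SimpleGraph (Fin n)).edgeFinset) p0 p1 (f := fun _ => 1)
    (g := fun W => (if 0 < (fromEdgeSet (W : Set (Sym2 (Fin n)))).copyCount H then 1 else 0) +
      if ∃ S ∈ orb (Equiv.Perm (Fin n)) (HE H f), S ⊆ W then 0 else 1) fun W _ => by
    split_ifs with a1 a2 a2
    any_goals norm_num
    obtain ⟨S, hS, hW⟩ := a2
    obtain ⟨g, -, rfl⟩ := mem_image.1 hS
    refine a1 (copyCount_pos.2 ⟨⟨⟨fun v => g (f v), fun {v w} hvw => ?_⟩,
      g.injective.comp f.injective⟩⟩)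
    rw [fromEdgeSet_adj]
    exact ⟨hW (mem_smul_finset.2 ⟨s(f v, f w), mem_image.2 ⟨s(v, w), by simpa using hvw, rfl⟩, rfl⟩),
      by simpa using hvw.ne⟩
  rw [ex_add, ex_const] at h2
  linarith

theorem main (hn : 2 ≤ n) (hV : Fintype.card V ≤ n) (hH : H ≠ ⊥) :
    pc n H ≤ 3200 * pE n H * Real.log n ^ 2 := by
  obtain ⟨f⟩ : Nonempty (V ↪ Fin n) := Function.Embedding.nonempty_of_card_le (by simpa using hV)
  have hl : 0.69 < Real.log 2 := by linarith [Real.log_two_gt_d9]
  have hl2 : Real.log 2 ≤ Real.log n := Real.log_le_log (by norm_num) (by exact_mod_cast hn)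
  have hl0 : 0 < Real.log n := by linarith
  obtain ⟨k, hk⟩ : ∃ k, k = Nat.log 2 (n ^ 2) + 1 := ⟨_, rfl⟩
  have k1 : #(HE H f) < 2 ^ k := by
    rw [hk]
    refine lt_of_le_of_lt ?_ (Nat.lt_pow_succ_log_self (b := 2) (by norm_num) (n ^ 2))
    have := card_le_card (HE_sub (H := H) f 1)
    rw [one_smul, card_edgeFinset_top_eq_card_choose_two, Fintype.card_fin] at this
    exact this.trans (Nat.choose_le_pow n 2)
  have k2 : (k : ℝ) ≤ 5 * Real.log n := by
    have h1 : ((2 ^ Nat.log 2 (n ^ 2) : ℕ) : ℝ) ≤ (n ^ 2 : ℕ) := by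
      exact_mod_cast Nat.pow_log_le_self 2 (by positivity)
    have h2 := Real.log_le_log (by positivity) h1
    push_cast at h2
    rw [Real.log_pow, Real.log_pow] at h2
    rw [hk]
    push_cast at h2 ⊢
    nlinarith [(by positivity : (0 : ℝ) ≤ Nat.log 2 (n ^ 2))]
  have p1 : pc n H ≤ 1 := pc_le f zero_le_one le_rfl (by
    have h1 := ex_sup (s := (⊤ : SimpleGraph (Fin n)).edgeFinset) Subset.rfl 1
    have h2 := ex_mono (s := (⊤ : SimpleGraph (Fin n)).edgeFinset) zero_le_one le_rfl
      (g := fun _ => 1) (f := fun W => (if (⊤ : SimpleGraph (Fin n)).edgeFinset ⊆ W then 1 else 0) +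
      if ∃ S ∈ orb (Equiv.Perm (Fin n)) (HE H f), S ⊆ W then 0 else 1) fun W _ => by
      split_ifs with a1 a2 a2
      any_goals norm_num
      exact a2 ⟨_, mem_image_of_mem _ (mem_univ 1), (HE_sub f 1).trans a1⟩
    rw [ex_add, ex_const, h1, one_pow] at h2
    linarith)
  rw [mul_right_comm, ← div_le_iff₀' (by positivity)]
  refine le_csInf ⟨1, ⟨zero_le_one, le_rfl⟩, fun F => ?_⟩ fun q hq => ?_
  · rw [bridge]
    refine le_trans ?_ (ex_mono zero_le_one le_rfl (f := fun W =>
      if (⊤ : SimpleGraph (Fin n)).edgeFinset ⊆ W then 1 else 0) fun W _ => ?_)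
    · rw [ex_sup Subset.rfl]; norm_num
    · split_ifs with h
      · rw [Nat.one_le_cast]
        refine copyCount_pos.2 ⟨⟨⟨fun v => f v, fun {v w} hvw => ?_⟩,
          f.injective.comp Subtype.val_injective⟩⟩
        have : f v ≠ f w := fun h => hvw.ne (Subtype.ext (f.injective h))
        rw [fromEdgeSet_adj]
        exact ⟨h (by simpa using this), this⟩
      · positivity
  · have hq' := orb_ge f hq.1.1 hq.1.2 hq.2
    have q0 : 0 < q := by
      refine lt_of_le_of_ne hq.1.1 ?_
      rintro rfl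
      have := hq' _ Subset.rfl
      rw [zero_pow (card_pos.2 (show (HE H f).Nonempty from
        (edgeFinset_nonempty.2 hH).image _)).ne'] at this
      norm_num at this
    rw [div_le_iff₀' (by positivity)]
    have k0 : 0 < k := by omega
    have k3 : (1 : ℝ) ≤ k := by exact_mod_cast k0
    have k4 : 128 * k * q * k ≤ 3200 * Real.log n ^ 2 * q := by
      nlinarith [mul_le_mul k2 k2 (by positivity) (by positivity)]
    refine le_trans ?_ k4
    have k5 : 0 < 128 * k * q := by positivity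
    rcases le_or_gt (128 * k * q) 1 with h | h
    · refine (pc_le f (sub_nonneg.2 (pow_le_one₀ (by linarith) (by linarith)))
        (sub_le_self _ (pow_nonneg (by linarith) _)) (thr q0 hq' (HE_sub f) k1 k0 h)).trans ?_
      have := one_add_mul_le_pow (a := -(128 * k * q)) (by linarith) k
      rw [← sub_eq_add_neg] at this
      linarith
    · nlinarith

end

end Vale.Agent.P064
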