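import Vale.Agent.P064.PP

open Finset
open scoped Classical Pointwise

namespace Vale.Agent.P064

noncomputable section

variable {X Γ : Type*} [DecidableEq X] [Group Γ] [Fintype Γ] [MulAction Γ X]

def cnt (Γ : Type*) [Group Γ] [Fintype Γ] [MulAction Γ X] (F A : Finset X) : ℝ :=
  ∑ g : Γ, if g • F ⊆ A then 1 else 0

def orb (Γ : Type*) [Group Γ] [Fintype Γ] [MulAction Γ X] (J : Finset X) : Finset (Finset X) :=
  univ.image fun g : Γ => g • J

lemma cnt_smul (h : Γ) (F A : Finset X) : cnt Γ (h • F) A = cnt Γ F A :=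
  Fintype.sum_equiv (Equiv.mulRight h) _ _ fun g => by simp [mul_smul]

lemma cnt_nonneg (F A : Finset X) : 0 ≤ cnt Γ F A :=
  sum_nonneg fun _ _ => by split_ifs <;> simp

lemma fib (J : Finset X) {J' : Finset X} (h : J' ∈ orb Γ J) :
    (∑ g : Γ, if g • J = J' then (1 : ℝ) else 0) * #(orb Γ J) = Fintype.card Γ := by
  have h1 : ∀ J' ∈ orb Γ J, (∑ g : Γ, if g • J = J' then (1 : ℝ) else 0) =
      ∑ g : Γ, if g • J = J then (1 : ℝ) else 0 := by
    intro J' h
    obtain ⟨k, -, rfl⟩ := mem_image.1 h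
    exact (Fintype.sum_equiv (Equiv.mulLeft k) _ _ fun g => by simp [mul_smul]).symm
  rw [h1 J' h, mul_comm, ← nsmul_eq_mul, ← sum_const, ← sum_congr rfl h1, sum_comm,
    sum_congr rfl fun g _ => by
      rw [sum_ite_eq, if_pos (show g • J ∈ orb Γ J from mem_image_of_mem _ (mem_univ g))]]
  simp

variable {H : Finset X} {q : ℝ} (q0 : 0 < q) (hq : ∀ J ⊆ H, 1 / 2 ≤ #(orb Γ J) * q ^ #J)
include q0 hq

lemma step {A : Finset X} (hA : A ⊆ H) : ∃ J ⊆ A, 2 * #J ≤ #A ∧
    ∀ F, cnt Γ F A ≤ ∑ g : Γ, (8 * q) ^ #(g • F \ J) := by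
  obtain ⟨J, hJ, hmax⟩ := exists_max_image A.powerset (fun J => cnt Γ J A / (8 * q) ^ #J)
    (powerset_nonempty _)
  rw [mem_powerset] at hJ
  have hG : (0 : ℝ) < Fintype.card Γ := by exact_mod_cast Fintype.card_pos
  have h0 := hmax ∅ (empty_mem_powerset _)
  simp only [cnt, smul_finset_empty, empty_subset, if_true, sum_const, card_univ, nsmul_eq_mul,
    mul_one, card_empty, pow_zero, div_one] at h0
  rw [← cnt, le_div_iff₀ (by positivity)] at h0
  have hpos : 0 < cnt Γ J A := lt_of_lt_of_le (by positivity) h0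
  refine ⟨J, hJ, ?_, fun F => ?_⟩
  · by_contra hc
    have h1 : cnt Γ J A ≤ ∑ J' ∈ A.powerset, ∑ g : Γ, if g • J = J' then (1 : ℝ) else 0 := by
      rw [sum_comm]
      refine sum_le_sum fun g _ => ?_
      rw [sum_ite_eq]
      simp
    have h2 : ∀ J' ∈ A.powerset, (∑ g : Γ, if g • J = J' then (1 : ℝ) else 0) ≤
        2 * q ^ #J * Fintype.card Γ := by
      intro J' _
      by_cases h : J' ∈ orb Γ J
      · rw [← fib J h]
        have := hq J (hJ.trans hA)
        have h3 : (0 : ℝ) ≤ ∑ g : Γ, if g • J = J' then (1 : ℝ) else 0 :=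
          sum_nonneg fun _ _ => by split_ifs <;> simp
        nlinarith
      · rw [sum_eq_zero fun g _ => if_neg (by rintro rfl; exact h (mem_image_of_mem _ (mem_univ g)))]
        positivity
    have h3 := h1.trans (sum_le_card_nsmul _ _ _ h2)
    rw [card_powerset, nsmul_eq_mul] at h3
    have h4 : ((2 ^ #A : ℕ) : ℝ) * 2 ≤ 4 ^ #J := by
      rw [show (4 : ℝ) = 2 ^ 2 by norm_num, ← pow_mul]
      push_cast
      rw [← pow_succ]
      exact pow_le_pow_right₀ (by norm_num) (by omega)
    have h5 : (4 : ℝ) ^ #J < 8 ^ #J := pow_lt_pow_left₀ (by norm_num) (by norm_num) (by omega)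
    rw [mul_pow] at h0
    have h6 : 0 < q ^ #J * Fintype.card Γ := by positivity
    nlinarith
  · have h1 : ∀ J', cnt Γ J' A ≤ cnt Γ J A / (8 * q) ^ #J * (8 * q) ^ #J' := by
      intro J'
      by_cases h : ∃ g : Γ, g • J' ⊆ A
      · obtain ⟨g, hg⟩ := h
        have := hmax _ (mem_powerset.2 hg)
        rwa [cnt_smul, card_smul_finset, div_le_iff₀ (by positivity)] at this
      · rw [cnt, sum_eq_zero fun g _ => if_neg fun h' => h ⟨g, h'⟩]
        positivity
    have h2 : cnt Γ J A * cnt Γ F A = ∑ g : Γ, cnt Γ (J ∪ g • F) A := by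
      simp only [cnt]
      rw [sum_comm, sum_mul]
      refine sum_congr rfl fun h _ => ?_
      rw [mul_sum]
      refine (Fintype.sum_equiv (Equiv.mulLeft h) _ _ fun g => ?_).symm
      simp only [smul_finset_union, union_subset_iff, Equiv.coe_mulLeft, mul_smul]
      by_cases a : h • J ⊆ A <;> simp [a]
    refine le_of_mul_le_mul_left ?_ hpos
    rw [h2, mul_sum]
    refine sum_le_sum fun g _ => (h1 _).trans (le_of_eq ?_)
    rw [union_comm, ← card_sdiff_add_card, pow_add]
    field_simp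

lemma spread (k : ℕ) {A : Finset X} (hA : A ⊆ H) (hk : #A < 2 ^ k) (F : Finset X) :
    cnt Γ F A ≤ (k * (8 * q)) ^ #F * Fintype.card Γ := by
  induction k generalizing A F with
  | zero =>
    rw [card_eq_zero.1 (show #A = 0 by omega)]
    rcases F.eq_empty_or_nonempty with rfl | h
    · simp [cnt]
    · simp [cnt, h.ne_empty, h.card_pos.ne']
  | succ k ih =>
    obtain ⟨J, hJ, h1, h2⟩ := step q0 hq hA
    refine (h2 F).trans ?_
    calc _ ≤ ∑ g : Γ, ∑ S ∈ F.powerset, (8 * q) ^ (#F - #S) * if g • S ⊆ J then 1 else 0 := by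
          refine sum_le_sum fun g _ => le_trans (le_of_eq ?_) (single_le_sum
            (fun S _ => by split_ifs <;> positivity)
            (mem_powerset.2 (filter_subset (fun x => g • x ∈ J) F)))
          rw [if_pos, mul_one]
          · congr 1
            rw [← card_sdiff_of_subset (filter_subset _ _), ← card_smul_finset g (F \ _)]
            congr 1
            ext x
            simp only [mem_sdiff, ← inv_smul_mem_iff, mem_filter, smul_inv_smul]
            tauto
          · intro x hx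
            rw [← inv_smul_mem_iff, mem_filter, smul_inv_smul] at hx
            exact hx.2
      _ ≤ ∑ S ∈ F.powerset, (k * (8 * q)) ^ #S * (8 * q) ^ (#F - #S) * Fintype.card Γ := by
          rw [sum_comm]
          refine sum_le_sum fun S _ => ?_
          rw [← mul_sum, mul_comm (_ ^ #S), mul_assoc]
          exact mul_le_mul_of_nonneg_left (ih (hJ.trans hA) (by omega) S) (by positivity)
      _ = _ := by
          rw [← sum_mul, sum_pow_mul_eq_add_pow]
          push_cast; ring

theorem thr {s : Finset X} (hs : ∀ g : Γ, g • H ⊆ s) {k : ℕ} (hk : #H < 2 ^ k) (k0 : 0 < k)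
    (h1 : 128 * k * q ≤ 1) :
    ex s (1 - (1 - 128 * k * q) ^ k) (fun W => if ∃ S ∈ orb Γ H, S ⊆ W then 0 else 1) ≤ 1 / 3 := by
  refine (pp (by positivity) h1 k (orb Γ H) (fun S hS => ?_) (fun S hS => ?_) 1
    fun G hG => ?_).trans ?_
  · obtain ⟨g, -, rfl⟩ := mem_image.1 hS
    exact hs g
  · obtain ⟨g, -, rfl⟩ := mem_image.1 hS
    rwa [card_smul_finset]
  · have hG0 : (0 : ℝ) < Fintype.card Γ := by exact_mod_cast Fintype.card_pos
    refine le_of_mul_le_mul_right ?_ hG0
    rw [sum_mul, show 128 * k * q / 16 = k * (8 * q) by ring]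
    refine le_trans ?_ (sum_le_sum fun T _ => spread q0 hq k Subset.rfl hk T)
    simp only [cnt]
    rw [sum_comm, one_mul, ← card_univ, card_eq_sum_ones]
    push_cast
    refine sum_le_sum fun g _ => ?_
    obtain ⟨T, h2, h3⟩ := hG (g⁻¹ • H) (mem_image_of_mem _ (mem_univ _))
    refine le_trans ?_ (single_le_sum (fun _ _ => by split_ifs <;> simp) h2)
    rw [if_pos (smul_finset_subset_iff.2 h3)]
  · have : (0 : ℝ) ≤ (1 / 4) ^ k := by positivity
    linarith

end

end Vale.Agent.P064
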