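import Vale.Agent.P064.Defs

open Finset
open scoped Classical

namespace Vale.Agent.P064

noncomputable section

variable {X : Type*} [DecidableEq X]

def ex (s : Finset X) (p : ℝ) (f : Finset X → ℝ) : ℝ :=
  ∑ W ∈ s.powerset, p ^ #W * (1 - p) ^ (#s - #W) * f W

lemma ex_insert {s : Finset X} {a : X} (ha : a ∉ s) (p : ℝ) (f : Finset X → ℝ) :
    ex (insert a s) p f = ex s p fun W => p * f (insert a W) + (1 - p) * f W := by
  unfold ex
  rw [sum_powerset_insert ha, ← sum_add_distrib]
  refine sum_congr rfl fun W hW => ?_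
  have h1 := card_le_card (mem_powerset.1 hW)
  rw [card_insert_of_notMem ha, card_insert_of_notMem fun h => ha (mem_powerset.1 hW h),
    Nat.add_sub_add_right, show #s + 1 - #W = (#s - #W) + 1 by omega]
  ring

lemma ex_congr {s : Finset X} {p : ℝ} {f g : Finset X → ℝ} (h : ∀ W ⊆ s, f W = g W) :
    ex s p f = ex s p g := sum_congr rfl fun W hW => by rw [h W (mem_powerset.1 hW)]

lemma ex_mono {s : Finset X} {p : ℝ} (p0 : 0 ≤ p) (p1 : p ≤ 1) {f g : Finset X → ℝ}
    (h : ∀ W ⊆ s, f W ≤ g W) : ex s p f ≤ ex s p g :=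
  sum_le_sum fun W hW => mul_le_mul_of_nonneg_left (h W (mem_powerset.1 hW))
    (mul_nonneg (pow_nonneg p0 _) (pow_nonneg (by linarith) _))

lemma ex_add (s : Finset X) (p : ℝ) (f g : Finset X → ℝ) :
    ex s p (fun W => f W + g W) = ex s p f + ex s p g := by
  simp only [ex, mul_add, sum_add_distrib]

lemma ex_mul (s : Finset X) (p c : ℝ) (f : Finset X → ℝ) :
    ex s p (fun W => c * f W) = c * ex s p f := by
  simp only [ex, mul_sum]
  exact sum_congr rfl fun _ _ => by ring

lemma ex_const (s : Finset X) (p c : ℝ) : ex s p (fun _ => c) = c := by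
  rw [ex, ← sum_mul, sum_pow_mul_eq_add_pow]; simp

lemma ex_sum {κ : Type*} (t : Finset κ) (s : Finset X) (p : ℝ) (f : κ → Finset X → ℝ) :
    ex s p (fun W => ∑ i ∈ t, f i W) = ∑ i ∈ t, ex s p (f i) := by
  simp only [ex, mul_sum]
  exact sum_comm

lemma ex_union (s : Finset X) (p q : ℝ) (f : Finset X → ℝ) :
    ex s p (fun W => ex s q fun W' => f (W ∪ W')) = ex s (p + q - p * q) f := by
  induction s using Finset.induction_on generalizing f with
  | empty => simp [ex]
  | insert a s ha ih =>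
    rw [ex_insert ha, ex_insert ha, ← ih]
    refine ex_congr fun W _ => ?_
    rw [ex_insert ha, ex_insert ha, ← ex_mul, ← ex_mul, ← ex_add]
    refine ex_congr fun W' _ => ?_
    simp only [insert_union, union_insert, insert_idem]
    ring

lemma ex_sup {s T : Finset X} (hT : T ⊆ s) (p : ℝ) :
    ex s p (fun W => if T ⊆ W then 1 else 0) = p ^ #T := by
  induction s using Finset.induction_on generalizing T with
  | empty => simp [subset_empty.1 hT, ex]
  | insert a s ha ih =>
    rw [ex_insert ha]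
    by_cases h : a ∈ T
    · rw [← card_erase_add_one h, pow_succ', ← ih (subset_insert_iff.1 hT), ← ex_mul]
      refine ex_congr fun W hW => ?_
      rw [if_neg (show ¬ T ⊆ W from fun h' => ha (hW (h' h)))]
      simp only [subset_insert_iff, mul_zero, add_zero]
    · rw [← ih ((subset_insert_iff_of_notMem h).1 hT)]
      refine ex_congr fun W _ => ?_
      simp only [subset_insert_iff_of_notMem h]
      ring

def Mn (F : Finset (Finset X)) (W T : Finset X) : Prop :=
  Disjoint W T ∧ (∃ S ∈ F, S ⊆ W ∪ T) ∧ ∀ S ∈ F, S ⊆ W ∪ T → T ⊆ S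

lemma exists_Mn {F : Finset (Finset X)} (W : Finset X) {S : Finset X} (hS : S ∈ F) :
    ∃ T ⊆ S, Mn F W T := by
  obtain ⟨S', h1, h2⟩ := exists_min_image (F.filter (· ⊆ W ∪ S)) (fun S' => #(S' \ W))
    ⟨S, mem_filter.2 ⟨hS, subset_union_right⟩⟩
  rw [mem_filter] at h1
  have h3 : S' \ W ⊆ S := sdiff_le_iff.2 h1.2
  refine ⟨S' \ W, h3, disjoint_sdiff, ⟨S', h1.1, by simp⟩, fun S'' h4 h5 => ?_⟩
  have := eq_of_subset_of_card_le (s := S'' \ W) (t := S' \ W) (sdiff_le_iff.2 h5)
    (h2 S'' (mem_filter.2 ⟨h4, h5.trans (union_subset_union_right h3)⟩))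
  rw [← this]
  exact sdiff_subset

lemma round {s : Finset X} {p : ℝ} (p0 : 0 < p) (p1 : p ≤ 1) {F : Finset (Finset X)} {m : ℕ}
    (hF : ∀ S ∈ F, #S ≤ 2 * m) :
    ex s p (fun W => ∑ T ∈ s.powerset with Mn F W T ∧ m ≤ #T, (p / 16) ^ #T) ≤ (1 / 4) ^ m := by
  calc _ = ∑ z ∈ s.powerset ×ˢ s.powerset with Mn F z.1 z.2 ∧ m ≤ #z.2,
        p ^ #z.1 * (1 - p) ^ (#s - #z.1) * (p / 16) ^ #z.2 := by
        simp only [ex, sum_filter, sum_product, mul_sum, mul_ite, mul_zero]
    _ ≤ ∑ z ∈ s.powerset ×ˢ s.powerset with z.2 ⊆ z.1 ∧ Mn F (z.1 \ z.2) z.2 ∧ m ≤ #z.2,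
        p ^ #z.1 * (1 - p) ^ (#s - #z.1) * (1 / 16) ^ m := by
        have q0 : 0 ≤ 1 - p := by linarith
        refine le_trans ?_ (sum_le_sum_of_subset_of_nonneg (s := (filter (fun z => Mn F z.1 z.2 ∧
          m ≤ #z.2) (s.powerset ×ˢ s.powerset)).image fun z => (z.1 ∪ z.2, z.2)) ?_
          fun _ _ _ => by positivity)
        · rw [sum_image fun z hz z' hz' h => ?_]
          · refine sum_le_sum fun z hz => ?_
            obtain ⟨-, a1, a2⟩ := mem_filter.1 hz
            simp only [card_union_of_disjoint a1.1]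
            have b1 : (1 - p) ^ (#s - #z.1) ≤ (1 - p) ^ (#s - (#z.1 + #z.2)) :=
              pow_le_pow_of_le_one q0 (by linarith) (by omega)
            have b2 : (1 / 16 : ℝ) ^ #z.2 ≤ (1 / 16) ^ m :=
              pow_le_pow_of_le_one (by norm_num) (by norm_num) a2
            rw [div_eq_mul_one_div p, mul_pow, pow_add]
            calc _ = p ^ #z.1 * p ^ #z.2 * (1 - p) ^ (#s - #z.1) * (1 / 16) ^ #z.2 := by ring
              _ ≤ _ := by gcongr
          · simp only [Prod.mk.injEq] at h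
            refine Prod.ext ?_ h.2
            rw [← union_sdiff_cancel_right (mem_filter.1 hz).2.1.1, h.1, h.2,
              union_sdiff_cancel_right (mem_filter.1 hz').2.1.1]
        · intro y hy
          obtain ⟨z, hz, rfl⟩ := mem_image.1 hy
          simp only [mem_filter, mem_product, mem_powerset] at hz ⊢
          rw [union_sdiff_cancel_right hz.2.1.1]
          exact ⟨⟨union_subset hz.1.1 hz.1.2, hz.1.2⟩, subset_union_right, hz.2⟩
    _ = ex s p fun Z => ∑ T ∈ s.powerset with T ⊆ Z ∧ Mn F (Z \ T) T ∧ m ≤ #T, (1 / 16) ^ m := by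
        simp only [ex, sum_filter, sum_product, mul_sum, mul_ite, mul_zero]
    _ ≤ ex s p fun _ => (1 / 4) ^ m := by
        refine ex_mono p0.le p1 fun Z _ => ?_
        rw [sum_const, nsmul_eq_mul]
        have : #{T ∈ s.powerset | T ⊆ Z ∧ Mn F (Z \ T) T ∧ m ≤ #T} ≤ 4 ^ m := by
          by_cases h : ∃ S ∈ F, S ⊆ Z
          · obtain ⟨S, h1, h2⟩ := h
            refine (card_le_card (t := S.powerset) fun T hT => ?_).trans ?_
            · obtain ⟨-, a1, a2, -⟩ := mem_filter.1 hT
              exact mem_powerset.2 (a2.2.2 S h1 (by rwa [sdiff_union_of_subset a1]))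
            · rw [card_powerset, show 4 = 2 ^ 2 by norm_num, ← pow_mul]
              exact Nat.pow_le_pow_right (by norm_num) (hF S h1)
          · rw [filter_false_of_mem fun T _ hT => h ?_]
            · simp
            · have := hT.2.1.2.1
              rwa [sdiff_union_of_subset hT.1] at this
        calc _ ≤ (4 : ℝ) ^ m * (1 / 16) ^ m := by gcongr; exact_mod_cast this
          _ = _ := by rw [← mul_pow]; norm_num
    _ = _ := ex_const _ _ _

theorem pp {s : Finset X} {p : ℝ} (p0 : 0 < p) (p1 : p ≤ 1) (k : ℕ) (F : Finset (Finset X))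
    (hs : ∀ S ∈ F, S ⊆ s) (hF : ∀ S ∈ F, #S < 2 ^ k) (c : ℝ)
    (hc : ∀ G : Finset (Finset X), (∀ S ∈ F, ∃ T ∈ G, T ⊆ S) → c ≤ ∑ T ∈ G, (p / 16) ^ #T) :
    ex s (1 - (1 - p) ^ k) (fun W => if ∃ S ∈ F, S ⊆ W then 0 else c) ≤ (1 - (1 / 4) ^ k) / 3 := by
  have hp : ∀ k : ℕ, 0 ≤ 1 - (1 - p) ^ k ∧ 1 - (1 - p) ^ k ≤ 1 := fun k =>
    ⟨sub_nonneg.2 (pow_le_one₀ (by linarith) (by linarith)),
      sub_le_self _ (pow_nonneg (by linarith) _)⟩
  induction k generalizing F c with
  | zero =>
    refine (ex_mono (hp 0).1 (hp 0).2 (g := fun _ => 0) fun W _ => ?_).trans (by simp [ex_const])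
    split_ifs with h
    · rfl
    · refine (hc ∅ fun S hS => (h ⟨S, hS, ?_⟩).elim).trans (by simp)
      have := hF S hS
      rw [card_eq_zero.1 (show #S = 0 by omega)]
      exact empty_subset _
  | succ k ih =>
    rcases le_or_gt c 0 with hc0 | hc0
    · refine (ex_mono (hp _).1 (hp _).2 (g := fun _ => 0) fun W _ => ?_).trans ?_
      · split_ifs
        exacts [le_rfl, hc0]
      · rw [ex_const]
        have : (1 / 4 : ℝ) ^ (k + 1) ≤ 1 := pow_le_one₀ (by norm_num) (by norm_num)
        linarith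
    rw [show 1 - (1 - p) ^ (k + 1) = p + (1 - (1 - p) ^ k) - p * (1 - (1 - p) ^ k) by ring,
      ← ex_union]
    have h1 := round (s := s) p0 p1 (F := F) (m := 2 ^ k) fun S hS => by
      have := hF S hS; omega
    refine (ex_mono p0.le p1 (g := fun W => (∑ T ∈ s.powerset with Mn F W T ∧ 2 ^ k ≤ #T,
      (p / 16) ^ #T) + (1 - (1 / 4) ^ k) / 3) fun W _ => ?_).trans ?_
    · obtain ⟨u, hu⟩ : ∃ u, u = ∑ T ∈ s.powerset with Mn F W T ∧ 2 ^ k ≤ #T, (p / 16) ^ #T :=
        ⟨_, rfl⟩
      have u0 : 0 ≤ u := hu ▸ sum_nonneg fun _ _ => by positivity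
      have := ih (s.powerset.filter fun T => Mn F W T ∧ #T < 2 ^ k)
        (fun T hT => mem_powerset.1 (mem_filter.1 hT).1) (fun T hT => (mem_filter.1 hT).2.2)
        (c - u) fun G hG => by
          rw [sub_le_iff_le_add, hu]
          refine (hc (G ∪ s.powerset.filter fun T => Mn F W T ∧ 2 ^ k ≤ #T) fun S hS => ?_).trans ?_
          · obtain ⟨T, h1, h2⟩ := exists_Mn W hS
            have h3 := mem_powerset.2 (h1.trans (hs S hS))
            rcases lt_or_ge #T (2 ^ k) with h | h
            · obtain ⟨T', h4, h5⟩ := hG T (mem_filter.2 ⟨h3, h2, h⟩)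
              exact ⟨T', mem_union_left _ h4, h5.trans h1⟩
            · exact ⟨T, mem_union_right _ (mem_filter.2 ⟨h3, h2, h⟩), h1⟩
          · rw [← sum_union_inter]
            exact le_add_of_nonneg_right (sum_nonneg fun _ _ => by positivity)
      rw [← hu]
      refine le_trans ?_ (add_le_add_right this u)
      rw [← ex_const s (1 - (1 - p) ^ k) u, ← ex_add, ex_const]
      refine ex_mono (hp _).1 (hp _).2 fun W' _ => ?_
      split_ifs with a1 a2 a2
      · linarith
      · linarith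
      · obtain ⟨T, a3, a4⟩ := a2
        obtain ⟨S, a5, a6⟩ := (mem_filter.1 a3).2.1.2.1
        exact absurd ⟨S, a5, a6.trans (union_subset_union_right a4)⟩ a1
      · linarith
    · rw [ex_add, ex_const]
      have : (1 / 4 : ℝ) ^ 2 ^ k ≤ (1 / 4) ^ (k + 1) :=
        pow_le_pow_of_le_one (by norm_num) (by norm_num) Nat.lt_two_pow_self
      rw [pow_succ] at this ⊢
      linarith

end

end Vale.Agent.P064
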